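import Vale.Agent.P129.H471.Family
import Vale.Agent.P129.H448.Real
import Vale.Agent.P129.H560.ZSeqEx
import Vale.Agent.P129.H200.Chain
import Vale.Agent.P129.H3.Final

/-! P129: the pieces put together: if some set of `ℵ₁` reals is not meagre, there is a Banach space
of density `ℵ₁` without separable infinite-dimensional quotients. -/

open Cardinal

namespace Vale.Agent.P129.H446

open Vale.Agent.P129.H189

universe u

theorem realCounterexample (h : nonMeagre = ℵ_ 1) : H3.RealCounterexample := by
  obtain ⟨FF, hFF⟩ := H471.exists_family (C := 3072) h fun l x hb => by
    obtain ⟨z, a, b, hz⟩ := H560.exists_zseq hb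
    exact H200.pairSupply hb hz
  exact H448.realCounterexample_of_family hFF

theorem densityAlephOne : H3.DensityAlephOne.{u} := H3.densityAlephOne realCounterexample

end Vale.Agent.P129.H446
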