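import Mathlib.Analysis.Normed.Module.FiniteDimension
import Mathlib.Analysis.RCLike.Basic
import Mathlib.MeasureTheory.Measure.Lebesgue.Basic
import Mathlib.SetTheory.Cardinal.Aleph
import Mathlib.SetTheory.Cardinal.Continuum
import Mathlib.Topology.Baire.Lemmas

/-! P129: the definitions used in the statements of `Results/P129/Undecidable` and
`Results/P129/DensityAlephOne`. -/

open MeasureTheory

namespace Vale.Agent.P129.H446

universe u

/-- `X` has a separable infinite-dimensional quotient: there is a closed subspace `M` such that
`X ⧸ M` is separable and infinite-dimensional. -/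
def HasSeparableQuotient (𝕜 : Type) [RCLike 𝕜] (X : Type u) [NormedAddCommGroup X]
    [NormedSpace 𝕜 X] : Prop :=
  ∃ M : Submodule 𝕜 X, IsClosed (M : Set X) ∧ TopologicalSpace.SeparableSpace (X ⧸ M) ∧
    ¬ FiniteDimensional 𝕜 (X ⧸ M)

/-- The density of a topological space: the least cardinality of a dense subset. -/
noncomputable def dens (X : Type u) [TopologicalSpace X] : Cardinal.{u} :=
  sInf {κ : Cardinal.{u} | ∃ S : Set X, Dense S ∧ Cardinal.mk S = κ}

/-- Lebesgue measure on the real line extends to a countably additive measure which is defined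
on all subsets of the real line. -/
def LebesgueExtends : Prop :=
  ∃ ν : @Measure ℝ ⊤, ∀ s : Set ℝ, MeasurableSet s → ν s = volume s

/-- The uniformity number of the meagre ideal, non(M): the least cardinality of a nonmeagre set of
real numbers. -/
noncomputable def nonMeagre : Cardinal.{0} :=
  sInf {κ : Cardinal.{0} | ∃ S : Set ℝ, ¬ IsMeagre S ∧ Cardinal.mk S = κ}

end Vale.Agent.P129.H446
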